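import Vale.Agent.P085.VN

open scoped ComplexOrder

/-- Every type II₁ factor on a separable Hilbert space is singly generated. -/
theorem Vale.Agent.Results.P085.Generator.result {H : Type*} [NormedAddCommGroup H]
    [InnerProductSpace ℂ H] [CompleteSpace H] [TopologicalSpace.SeparableSpace H]
    (M : VonNeumannAlgebra H)
    (factor : ∀ z ∈ M, (∀ x ∈ M, z * x = x * z) → ∃ c : ℂ, z = c • 1)
    (infinite_dim : ¬ FiniteDimensional ℂ M.toStarSubalgebra)
    (τ : M.toStarSubalgebra →ₗ[ℂ] ℂ)
    (unital : τ 1 = 1)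
    (positive : ∀ x, 0 ≤ τ (star x * x))
    (tracial : ∀ x y, τ (x * y) = τ (y * x))
    (faithful : ∀ x, τ (star x * x) = 0 → x = 0)
    (normal : @ContinuousOn _ _ (TopologicalSpace.induced
      (fun x : M.toStarSubalgebra => ContinuousLinearMapWOT.ofCLM x.1) inferInstance) _ τ
      {x | ‖x.1‖ ≤ 1}) :
    ∃ x ∈ M, ∀ N : VonNeumannAlgebra H, x ∈ N → M ≤ N :=
  Vale.Agent.P085.vn_single' factor infinite_dim τ unital positive tracial faithful normal
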